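import Vale.Agent.P032.S5.H483.Irr

/-!
# P032: cut colours and leaves of the complex of a point

Let `T` be an irredundant closed cover below `Kst U`, `z` a point with `T z = A ∪ B ∪ {d}` such that
near `z` the colours of `A` and of `B` meet only at points which carry `d`.  Then for every `y` with
`d ∈ Pal U y` the circle about `y` is, near `z`, covered by the colours of `A` or by the colours of
`B`; and if no `d`-partner of `z` is of the first kind, then the colours of `B ∪ {d}` are sufficient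
at `z` (`Irr.cut_suff`).  A leaf `A = {a}` is always of this kind (`Irr.leaf_suff`).
-/

open Set Filter Topology Metric

noncomputable section

namespace Vale.Agent.P032.Six

variable {k : ℕ} {U : Fin k → Set ℂ} {T : ℂ → Set (Fin k)}

/-- a unit circle meets a disc in a connected set -/
theorem isPreconnected_circle_inter_ball (u z : ℂ) (r : ℝ) :
    IsPreconnected (sphere u (1 : ℝ) ∩ ball z r) := by
  rcases le_or_gt r 0 with hr | hr
  · rw [ball_eq_empty.2 hr, inter_empty]; exact isPreconnected_empty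
  by_cases hc : z = u
  · subst hc
    rcases le_or_gt r 1 with h1 | h1
    · have : sphere z (1 : ℝ) ∩ ball z r = ∅ := by
        rw [eq_empty_iff_forall_notMem]
        rintro w ⟨hw, hw'⟩
        rw [mem_sphere] at hw; rw [mem_ball] at hw'
        linarith
      rw [this]; exact isPreconnected_empty
    · have : sphere z (1 : ℝ) ∩ ball z r = sphere z (1 : ℝ) := by
        refine inter_eq_left.2 fun w hw => ?_
        rw [mem_sphere] at hw; rw [mem_ball, hw]; exact h1
      rw [this]; exact isPreconnected_circle z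
  set c : ℂ := z - u with hcdef
  have hc0 : c ≠ 0 := sub_ne_zero.2 hc
  set ρ : ℝ := ‖c‖ with hρ
  have hρ0 : 0 < ρ := norm_pos_iff.2 hc0
  obtain ⟨θ, hθ⟩ := exists_cis (u := c / ρ) (by
    rw [norm_div, Complex.norm_real, Real.norm_of_nonneg hρ0.le, ← hρ, div_self hρ0.ne'])
  have hcρ : c = cis θ * ρ := by
    rw [← hθ, div_mul_cancel₀]
    exact_mod_cast hρ0.ne'
  have hmul : ∀ s t : ℝ, cis (s + t) = cis s * cis t := by
    intro s t; unfold cis; rw [← Complex.exp_add]; push_cast; ring_nf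
  -- the distance in the parameter
  have hdist : ∀ t : ℝ, dist (u + cis (θ + t)) z ^ 2 = 1 - 2 * ρ * Real.cos t + ρ ^ 2 := by
    intro t
    have h1 : u + cis (θ + t) - z = cis θ * (cis t - ρ) := by
      rw [hmul]
      have : u - z = - (cis θ * ρ) := by rw [← hcρ, hcdef]; ring
      linear_combination this
    rw [dist_eq_norm, h1, norm_mul, norm_cis, one_mul, Complex.sq_norm, Complex.normSq_apply]
    have hre : (cis t - ρ).re = Real.cos t - ρ := by
      unfold cis; rw [Complex.sub_re, Complex.exp_ofReal_mul_I_re, Complex.ofReal_re]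
    have him : (cis t - ρ).im = Real.sin t := by
      unfold cis; rw [Complex.sub_im, Complex.exp_ofReal_mul_I_im, Complex.ofReal_im, sub_zero]
    rw [hre, him]
    have := Real.sin_sq_add_cos_sq t
    nlinarith
  have himg : sphere u (1 : ℝ) ∩ ball z r =
      (fun t : ℝ => u + cis (θ + t)) '' {t | t ∈ Icc (-Real.pi) Real.pi ∧
        1 - 2 * ρ * Real.cos t + ρ ^ 2 < r ^ 2} := by
    ext w
    constructor
    · rintro ⟨hw, hw'⟩
      have hn : ‖(w - u) / cis θ‖ = 1 := by
        rw [norm_div, norm_cis, div_one, ← dist_eq_norm]; exact hw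
      have hcis0 : cis θ ≠ 0 := by
        intro h0
        have := norm_cis θ
        rw [h0, norm_zero] at this
        exact zero_ne_one this
      set t := Complex.arg ((w - u) / cis θ) with ht
      have hexp : (w - u) / cis θ = cis t := by
        have h1 := Complex.norm_mul_exp_arg_mul_I ((w - u) / cis θ)
        rw [hn, Complex.ofReal_one, one_mul] at h1
        rw [← h1]; rfl
      have hwt : w = u + cis (θ + t) := by
        rw [hmul, ← hexp]
        field_simp
        ring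
      refine ⟨t, ⟨⟨(Complex.neg_pi_lt_arg _).le, Complex.arg_le_pi _⟩, ?_⟩, hwt.symm⟩
      rw [← hdist t, ← hwt]
      rw [mem_ball] at hw'
      exact pow_lt_pow_left₀ hw' dist_nonneg (by norm_num)
    · rintro ⟨t, ⟨-, ht⟩, rfl⟩
      refine ⟨dist_add_cis _ _, ?_⟩
      rw [mem_ball]
      simp only at ht ⊢
      rw [← hdist t] at ht
      exact lt_of_pow_lt_pow_left₀ 2 hr.le ht
  rw [himg]
  refine IsPreconnected.image ?_ _
    (continuous_const.add (continuous_cis.comp (continuous_const.add continuous_id))).continuousOn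
  refine OrdConnected.isPreconnected ⟨?_⟩
  rintro a ⟨ha, ha'⟩ b ⟨hb, hb'⟩ t ⟨hat, htb⟩
  refine ⟨⟨ha.1.trans hat, htb.trans hb.2⟩, ?_⟩
  -- the cosine on the segment
  rcases le_total 0 t with h0 | h0
  · have h1 : Real.cos b ≤ Real.cos t := Real.cos_le_cos_of_nonneg_of_le_pi h0 hb.2 htb
    nlinarith
  · have h1 : Real.cos a ≤ Real.cos t := by
      rw [← Real.cos_neg a, ← Real.cos_neg t]
      exact Real.cos_le_cos_of_nonneg_of_le_pi (by linarith) (by linarith [ha.1]) (by linarith)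
    nlinarith

/-- the points with a colour in `A` -/
def FA (T : ℂ → Set (Fin k)) (A : Set (Fin k)) : Set ℂ := {w | ∃ a ∈ A, a ∈ T w}

theorem Irr.isClosed_FA (h : Irr U T) (A : Set (Fin k)) : IsClosed (FA T A) := by
  have : FA T A = ⋃ a ∈ A, {w | a ∈ T w} := by
    ext w; simp [FA]
  rw [this]
  exact A.toFinite.isClosed_biUnion fun a _ => h.closed a

/-- the hypotheses at `z` on the disc of radius `r` -/
structure Cut (T : ℂ → Set (Fin k)) (z : ℂ) (r : ℝ) (A B : Set (Fin k)) (d : Fin k) : Prop where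
  pos : 0 < r
  sub : ∀ w ∈ ball z r, T w ⊆ A ∪ B ∪ {d}
  meet : ∀ w ∈ ball z r, w ∈ FA T A → w ∈ FA T B → d ∈ T w

variable {z : ℂ} {r : ℝ} {A B : Set (Fin k)} {d : Fin k}

/-- no jump, for points of `U d` -/
theorem Irr.class_of_mem (h : Irr U T) (hC : Cut T z r A B d) {u : ℂ} (hu : u ∈ U d) :
    (∀ w ∈ sphere u (1 : ℝ) ∩ ball z r, w ∈ FA T A) ∨
      ∀ w ∈ sphere u (1 : ℝ) ∩ ball z r, w ∈ FA T B := by
  have hd : ∀ w ∈ sphere u (1 : ℝ), d ∉ T w := fun w hw hd =>
    h.mx.notMem' hu (by rw [dist_comm]; exact hw) (h.sub w hd)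
  have hcov : ∀ w ∈ sphere u (1 : ℝ) ∩ ball z r, w ∈ FA T A ∨ w ∈ FA T B := by
    rintro w ⟨hw, hw'⟩
    obtain ⟨i, hi⟩ := h.ne w
    rcases hC.sub w hw' hi with (hiA | hiB) | hid
    · exact Or.inl ⟨i, hiA, hi⟩
    · exact Or.inr ⟨i, hiB, hi⟩
    · rw [mem_singleton_iff] at hid
      subst hid
      exact absurd hi (hd w hw)
  by_contra hcon
  push Not at hcon
  obtain ⟨⟨w1, hw1, h1⟩, ⟨w2, hw2, h2⟩⟩ := hcon
  obtain ⟨w, hw, hwA, hwB⟩ := isPreconnected_closed_iff.1 (isPreconnected_circle_inter_ball u z r)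
    (FA T A) (FA T B) (h.isClosed_FA A) (h.isClosed_FA B) (fun w hw => hcov w hw)
    ⟨w2, hw2, (hcov w2 hw2).resolve_right h2⟩ ⟨w1, hw1, (hcov w1 hw1).resolve_left h1⟩
  exact hd w hw.1 (hC.meet w hw.2 hwA hwB)

/-- **no jump**: near `z` the circle about a point `y` with `d ∈ Pal U y` lies in one class -/
theorem Irr.class_of_pal (h : Irr U T) (hC : Cut T z r A B d) {y : ℂ} (hy : d ∈ Pal U y) :
    (∀ w ∈ sphere y (1 : ℝ) ∩ ball z r, w ∈ FA T A) ∨
      ∀ w ∈ sphere y (1 : ℝ) ∩ ball z r, w ∈ FA T B := by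
  by_contra hcon
  push Not at hcon
  obtain ⟨⟨w1, hw1, h1⟩, ⟨w2, hw2, h2⟩⟩ := hcon
  have key : ∀ (A' : Set (Fin k)) (w' : ℂ), w' ∈ sphere y (1 : ℝ) ∩ ball z r → w' ∉ FA T A' →
      ∃ e > 0, ∀ u, dist u y < e → w' + (u - y) ∈ sphere u (1 : ℝ) ∩ ball z r ∧
        w' + (u - y) ∉ FA T A' := by
    intro A' w' hw' hA'
    obtain ⟨e, he, hball⟩ := Metric.isOpen_iff.1
      (isOpen_ball.inter (h.isClosed_FA A').isOpen_compl) w' ⟨hw'.2, hA'⟩
    refine ⟨e, he, fun u hu => ?_⟩
    have h3 : w' + (u - y) ∈ ball w' e := by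
      rw [mem_ball, dist_eq_norm, add_sub_cancel_left, ← dist_eq_norm]; exact hu
    refine ⟨⟨?_, (hball h3).1⟩, (hball h3).2⟩
    rw [mem_sphere, dist_eq_norm]
    have : w' + (u - y) - u = w' - y := by ring
    rw [this, ← dist_eq_norm]; exact hw'.1
  obtain ⟨e1, he1, k1⟩ := key A w1 hw1 h1
  obtain ⟨e2, he2, k2⟩ := key B w2 hw2 h2
  obtain ⟨u, hu, hd⟩ := Metric.mem_closure_iff.1 hy (min e1 e2) (lt_min he1 he2)
  have hd1 : dist u y < e1 := by rw [dist_comm]; exact lt_of_lt_of_le hd (min_le_left _ _)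
  have hd2 : dist u y < e2 := by rw [dist_comm]; exact lt_of_lt_of_le hd (min_le_right _ _)
  rcases h.class_of_mem hC hu with h3 | h3
  · exact (k1 u hd1).2 (h3 _ (k1 u hd1).1)
  · exact (k2 u hd2).2 (h3 _ (k2 u hd2).1)

/-- if no `d`-partner of `z` is of class `A`, then near `z` all points outside `U d` carry a colour of
`B` -/
theorem Irr.cut_near (h : Irr U T) (hC : Cut T z r A B d)
    (hA : ∀ y, dist y z = 1 → d ∈ Pal U y → ∃ w ∈ sphere y (1 : ℝ) ∩ ball z r, w ∉ FA T A) :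
    ∀ᶠ w in 𝓝 z, w ∉ U d → w ∈ FA T B := by
  by_contra hcon
  rw [Filter.not_eventually] at hcon
  have h1 : ∀ n : ℕ, ∃ w y : ℂ, dist w z < 1 / (n + 1) ∧ w ∉ FA T B ∧ dist w y = 1 ∧
      d ∈ Pal U y := by
    intro n
    obtain ⟨w, hw, hw'⟩ := hcon.and_eventually
      (Metric.ball_mem_nhds z (by positivity : (0 : ℝ) < 1 / (n + 1))) |>.exists
    push Not at hw
    obtain ⟨y, hy, hy'⟩ := h.partner hw.1
    exact ⟨w, y, hw', hw.2, hy, hy'⟩
  choose w y hwz hwB hwy hyd using h1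
  have hlim : Tendsto w atTop (𝓝 z) := by
    rw [tendsto_iff_dist_tendsto_zero]
    exact squeeze_zero (fun _ => dist_nonneg) (fun n => (hwz n).le)
      tendsto_one_div_add_atTop_nhds_zero_nat
  have hbd : ∀ n, y n ∈ closedBall z 2 := by
    intro n
    rw [mem_closedBall]
    have h2 : (1 : ℝ) / (n + 1) ≤ 1 := by
      rw [div_le_one (by positivity)]
      have : (0 : ℝ) ≤ n := Nat.cast_nonneg n
      linarith
    calc dist (y n) z ≤ dist (y n) (w n) + dist (w n) z := dist_triangle _ _ _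
      _ ≤ 1 + 1 := add_le_add (by rw [dist_comm]; exact (hwy n).le) ((hwz n).le.trans h2)
      _ = 2 := by norm_num
  obtain ⟨y0, -, φ, hφ, hy0⟩ := (isCompact_closedBall z 2).tendsto_subseq hbd
  have hy0z : dist y0 z = 1 := by
    have h3 : Tendsto (fun n => dist (w (φ n)) (y (φ n))) atTop (𝓝 (dist z y0)) :=
      (hlim.comp hφ.tendsto_atTop).dist hy0
    have h4 : (fun n => dist (w (φ n)) (y (φ n))) = fun _ => (1 : ℝ) := funext fun n => hwy _
    rw [h4] at h3
    rw [dist_comm]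
    exact (tendsto_nhds_unique tendsto_const_nhds h3).symm
  have hy0d : d ∈ Pal U y0 :=
    isClosed_closure.mem_of_tendsto hy0 (Eventually.of_forall fun n => hyd _)
  obtain ⟨v, hv, hvA⟩ := hA y0 hy0z hy0d
  obtain ⟨e, he, hball⟩ := Metric.isOpen_iff.1
    (isOpen_ball.inter (h.isClosed_FA A).isOpen_compl) v ⟨hv.2, hvA⟩
  have hev : ∀ᶠ n in atTop, dist (y (φ n)) y0 < e ∧ dist (w (φ n)) z < r :=
    ((tendsto_iff_dist_tendsto_zero.1 hy0).eventually (gt_mem_nhds he)).and
      ((tendsto_iff_dist_tendsto_zero.1 (hlim.comp hφ.tendsto_atTop)).eventually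
        (gt_mem_nhds hC.pos))
  obtain ⟨n, hn1, hn2⟩ := hev.exists
  have hv3 : v + (y (φ n) - y0) ∈ ball v e := by
    rw [mem_ball, dist_eq_norm, add_sub_cancel_left, ← dist_eq_norm]; exact hn1
  have hv4 : v + (y (φ n) - y0) ∈ sphere (y (φ n)) (1 : ℝ) := by
    rw [mem_sphere, dist_eq_norm]
    have : v + (y (φ n) - y0) - y (φ n) = v - y0 := by ring
    rw [this, ← dist_eq_norm]; exact hv.1
  rcases h.class_of_pal hC (hyd (φ n)) with h5 | h5
  · exact (hball hv3).2 (h5 _ ⟨hv4, (hball hv3).1⟩)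
  · exact hwB _ (h5 _ ⟨hwy _, hn2⟩)

/-- **Cut lemma**: the colours of `B ∪ {d}` are sufficient at `z`, even for `Kst` -/
theorem Irr.cut_suff (h : Irr U T) (hK : ∀ x, T x ⊆ Kst U x) (hC : Cut T z r A B d)
    (hz : z ∉ U d)
    (hA : ∀ y, dist y z = 1 → d ∈ Pal U y → ∃ w ∈ sphere y (1 : ℝ) ∩ ball z r, w ∉ FA T A) :
    ∀ᶠ w in 𝓝 z, ∃ i ∈ B ∪ {d}, i ∈ Kst U w := by
  obtain ⟨δ, hδ, hball⟩ := Metric.mem_nhds_iff.1
    ((h.cut_near hC hA).and (Metric.ball_mem_nhds z hC.pos))
  refine Metric.mem_nhds_iff.2 ⟨δ / 2, by positivity, fun w hw => ?_⟩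
  rw [mem_ball] at hw
  have hwδ : w ∈ ball z δ := by rw [mem_ball]; linarith
  have hwr : w ∈ ball z r := (hball hwδ).2
  by_cases hBd : ∃ i ∈ B ∪ {d}, i ∈ T w
  · obtain ⟨i, hi, hi'⟩ := hBd
    exact ⟨i, hi, hK w hi'⟩
  push Not at hBd
  obtain ⟨a, ha⟩ := h.ne w
  have haA : a ∈ A := by
    rcases hC.sub w hwr ha with (h1 | h1) | h1
    · exact h1
    · exact absurd ha (hBd a (Or.inl h1))
    · exact absurd ha (hBd a (Or.inr h1))
  have hwB : w ∉ FA T B := fun ⟨b, hb, hb'⟩ => hBd b (Or.inl hb) hb'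
  have hwU : w ∈ U d := by
    by_contra hcon
    exact hwB ((hball hwδ).1 hcon)
  refine ⟨d, Or.inr rfl, subset_closure hwU, fun j => ?_⟩
  refine ((hK w ha).2 j).trans ?_
  by_contra hlt
  push Not at hlt
  -- the nearest point outside `U d`
  have hne : (U d)ᶜ.Nonempty := ⟨z, hz⟩
  obtain ⟨v, hv, hvd⟩ := (h.mx.isOpen d).isClosed_compl.exists_infDist_eq_dist hne w
  have hff : ff U d w = dist w v := hvd
  have hwv : dist w v ≤ dist w z := by
    rw [← hvd]; exact infDist_le_dist_of_mem hz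
  have hvδ : v ∈ ball z δ := by
    rw [mem_ball]
    calc dist v z ≤ dist v w + dist w z := dist_triangle _ _ _
      _ < δ := by rw [dist_comm v w]; linarith
  have hvB : v ∈ FA T B := (hball hvδ).1 hv
  have hseg : segment ℝ w v ⊆ ball z δ := (convex_ball z δ).segment_subset hwδ hvδ
  have hnod : ∀ x ∈ segment ℝ w v, d ∉ T x := by
    intro x hx hdx
    have h1 := (hK x hdx).2 a
    have h2 : ff U d x ≤ dist x v := infDist_le_dist_of_mem hv
    have h3 : ff U a w ≤ ff U a x + dist w x := infDist_le_infDist_add_dist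
    have h4 : dist w x + dist x v = dist w v := dist_add_dist_of_mem_segment hx
    linarith
  obtain ⟨x, hx, hxA, hxB⟩ := isPreconnected_closed_iff.1 (convex_segment w v).isPreconnected
    (FA T A) (FA T B) (h.isClosed_FA A) (h.isClosed_FA B) (by
      intro x hx
      obtain ⟨i, hi⟩ := h.ne x
      rcases hC.sub x (hball (hseg hx)).2 hi with (h1 | h1) | h1
      · exact Or.inl ⟨i, h1, hi⟩
      · exact Or.inr ⟨i, h1, hi⟩
      · rw [mem_singleton_iff] at h1
        subst h1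
        exact absurd hi (hnod x hx))
    ⟨w, left_mem_segment ℝ w v, ⟨a, haA, ha⟩⟩ ⟨v, right_mem_segment ℝ w v, hvB⟩
  exact hnod x hx (hC.meet x (hball (hseg hx)).2 hxA hxB)

/-- a leaf: the circle about a `d`-partner of `z` is not covered by `a` near `z` if `a` has an arc on
the circle about `z` -/
theorem Irr.leaf_class (h : Irr U T) {z q : ℂ} {r : ℝ} (hr : 0 < r) {a b : Fin k}
    (ha : a ∈ T z) (hb : b ∈ T z) (hq : dist q z = 1) (hTq : T q ⊆ {a, b}) (y : ℂ)
    (hy : dist y z = 1) : ∃ w ∈ sphere y (1 : ℝ) ∩ ball z r, w ∉ FA T {a} := by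
  by_contra hcon
  push Not at hcon
  have hJ : ∀ᶠ w in 𝓝[sphere y 1] z, a ∈ Pal U w := by
    filter_upwards [mem_nhdsWithin_of_mem_nhds (ball_mem_nhds z hr), self_mem_nhdsWithin]
      with w h1 h2
    obtain ⟨a', ha', haw⟩ := hcon w ⟨h2, h1⟩
    rw [mem_singleton_iff] at ha'
    subst ha'
    exact h.sub w haw
  have hsub : T q ⊆ T z := by
    intro i hi
    rcases hTq hi with rfl | h1
    · exact ha
    · rw [mem_singleton_iff] at h1
      subst h1
      exact hb
  obtain ⟨p, -, hp, hconst, hpq, h2, -⟩ := h.arc_of_sub hq hsub univ_mem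
  have hpa : a ∈ T p := by
    by_contra hna
    have h3 : T p ⊆ {b} := by
      intro i hi
      rcases hTq (hpq hi) with rfl | h1
      · exact absurd hi hna
      · exact h1
    have := Set.ncard_le_ncard h3 (Set.toFinite _)
    rw [Set.ncard_singleton] at this
    omega
  obtain ⟨g, hg, hg1, hg2, hg3, -⟩ := exists_generic (y := y) hp
    (hconst.mono fun q' (hq' : T q' = T p) => (show a ∈ T q' by rw [hq']; exact hpa))
  rcases h.mx.partner_line (by rw [dist_comm]; exact hy) hJ (by rw [dist_comm]; exact hg1)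
    (h.sub g hg) with h5 | h5
  · exact hg2 h5
  · exact hg3 h5

/-- **Leaf lemma.**  `T z` has at least four colours, every pair `{a, b}` with `b ∈ T z`, `b ≠ a, d`
contains a palette of the circle about `z`, and near `z` the colour `a` meets the colours
`b ≠ a, d` only at points which carry `d`.  Then `T z \ {a}` is sufficient at `z`. -/
theorem Irr.leaf_suff (h : Irr U T) (hK : ∀ x, T x ⊆ Kst U x) {z : ℂ} {a d : Fin k}
    (hz : z ∈ XX U) (ha : a ∈ T z) (hd : d ∈ T z) (had : a ≠ d)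
    (hex : ∃ b ∈ T z, b ≠ a ∧ b ≠ d)
    (hM : ∀ b ∈ T z, b ≠ a → b ≠ d → ∃ q, dist q z = 1 ∧ T q ⊆ {a, b})
    (hmeet : ∀ᶠ w in 𝓝 z, 4 ≤ (T w).ncard → a ∈ T w → d ∈ T w) :
    ∀ᶠ w in 𝓝 z, ∃ i ∈ T z, i ≠ a ∧ i ∈ Kst U w := by
  set B : Set (Fin k) := {b | b ∈ T z ∧ b ≠ a ∧ b ≠ d} with hB
  have hlay : ∀ᶠ w in 𝓝 z, ∀ b ∈ B, a ∈ T w → b ∈ T w → 4 ≤ (T w).ncard := by
    rw [eventually_all_finite B.toFinite]
    rintro b ⟨hb, hba, hbd⟩
    obtain ⟨q, hq, hTq⟩ := hM b hb hba hbd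
    filter_upwards [h.no_layer hq] with w hw h1 h2
    refine hw fun i hi => ?_
    rcases hTq hi with rfl | h3
    · exact h1
    · rw [mem_singleton_iff] at h3; subst h3; exact h2
  obtain ⟨r, hr, hball⟩ := Metric.mem_nhds_iff.1 ((h.nhd z).and (hlay.and hmeet))
  have hC : Cut T z r {a} B d := by
    refine ⟨hr, fun w hw i hi => ?_, fun w hw h1 h2 => ?_⟩
    · have hiz := (hball hw).1 hi
      by_cases h1 : i = a
      · exact Or.inl (Or.inl h1)
      · by_cases h2 : i = d
        · exact Or.inr h2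
        · exact Or.inl (Or.inr ⟨hiz, h1, h2⟩)
    · obtain ⟨a', ha', haw⟩ := h1
      rw [mem_singleton_iff] at ha'
      subst ha'
      obtain ⟨b, hb, hbw⟩ := h2
      exact (hball hw).2.2 ((hball hw).2.1 b hb haw hbw) haw
  obtain ⟨b, hb, hba, hbd⟩ := hex
  obtain ⟨q, hq, hTq⟩ := hM b hb hba hbd
  have := h.cut_suff hK hC (hz d) fun y hy _ => h.leaf_class hr ha hb hq hTq y hy
  filter_upwards [this] with w ⟨i, hi, hiw⟩
  rcases hi with hi | hi
  · exact ⟨i, hi.1, hi.2.1, hiw⟩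
  · rw [mem_singleton_iff] at hi
    subst hi
    exact ⟨i, hd, had.symm, hiw⟩

end Vale.Agent.P032.Six
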